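import Vale.Agent.P201.Final

/-- Kaplansky's zero-divisor conjecture fails: there is a torsion-free group whose group algebra
over the field with two elements has nonzero zero divisors. -/
theorem Vale.Agent.Results.P201.ZeroDivisors.result :
    ∃ (G : Type) (_ : Group G), (∀ (g : G) (n : ℕ), 0 < n → g ^ n = 1 → g = 1) ∧
      ∃ a b : MonoidAlgebra (ZMod 2) G, a ≠ 0 ∧ b ≠ 0 ∧ a * b = 0 := by
  obtain ⟨G, _, h, a, a', c, c', h1, h2, h3, -, -⟩ := Vale.Agent.P201.main_alg
  exact ⟨G, inferInstance, fun g n hn e => h g (isOfFinOrder_iff_pow_eq_one.2 ⟨n, hn, e⟩),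
    c, c', h1, h2, h3⟩
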